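/-
Tingley's problem for `C(K, E)`, `K` an infinite compact metric space, `E` any nonzero real normed
space.  Basic facts on vanishing near a point, and bump functions.
-/
import Vale.Agent.Lib.P084.Inf.Cofacial
import Vale.Agent.Lib.P084.MSum.Main

namespace Vale.Agent.Lib.P084.CK

open Vale.Agent.Lib.P084.UC Vale.Agent.Lib.P084.Inf
open Filter Topology

variable {K : Type*} [MetricSpace K] [CompactSpace K] {E : Type*} [NormedAddCommGroup E]

/-- `x` vanishes near `t`. -/
def Near0 (x : C(K, E)) (t : K) : Prop := ∀ᶠ s in 𝓝 t, x s = 0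

/-- `a` and `b` have disjoint closed supports. -/
def Sep (a b : C(K, E)) : Prop := ∀ t, Near0 a t ∨ Near0 b t

omit [CompactSpace K] in
theorem Near0.self {x : C(K, E)} {t : K} (h : Near0 x t) : x t = 0 := Filter.Eventually.self_of_nhds (p := fun s => x s = 0) h

omit [CompactSpace K] in
theorem isOpen_near0 (x : C(K, E)) : IsOpen {t | Near0 x t} := isOpen_setOfPred_eventually_nhds

omit [CompactSpace K] in
theorem Near0.add {x y : C(K, E)} {t : K} (hx : Near0 x t) (hy : Near0 y t) : Near0 (x + y) t := by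
  filter_upwards [hx, hy] with s h1 h2
  simp [h1, h2]

omit [CompactSpace K] in
theorem Near0.of_imp {x : C(K, E)} {t : K} {F : Type*} [NormedAddCommGroup F] {y : C(K, F)}
    (hx : Near0 x t) (h : ∀ s, x s = 0 → y s = 0) : Near0 y t := by
  filter_upwards [hx] with s h1 using h s h1

omit [CompactSpace K] in
theorem Sep.symm {a b : C(K, E)} (h : Sep a b) : Sep b a := fun t => (h t).symm

omit [CompactSpace K] in
theorem Sep.ptwise {a b : C(K, E)} (h : Sep a b) (t : K) : a t = 0 ∨ b t = 0 :=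
  (h t).imp Near0.self Near0.self

omit [CompactSpace K] in
/-- At a point where `a` does not vanish, `b` vanishes nearby. -/
theorem Sep.near_of_ne {a b : C(K, E)} (h : Sep a b) {t : K} (ht : a t ≠ 0) : Near0 b t :=
  (h t).resolve_left fun h' => ht h'.self

omit [CompactSpace K] in
theorem Near0.zero (t : K) : Near0 (0 : C(K, E)) t := Eventually.of_forall fun _ => rfl

omit [CompactSpace K] in
/-- Upper bound of the sum of disjointly supported functions. -/
theorem norm_add_le_of_ptwise {a b : C(K, E)} [CompactSpace K] (h : ∀ t, a t = 0 ∨ b t = 0) {M : ℝ}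
    (hM : 0 ≤ M) (ha : ‖a‖ ≤ M) (hb : ‖b‖ ≤ M) : ‖a + b‖ ≤ M := by
  rw [ContinuousMap.norm_le _ hM]
  intro t
  rcases h t with h | h
  · simpa [h] using (b.norm_coe_le_norm t).trans hb
  · simpa [h] using (a.norm_coe_le_norm t).trans ha

omit [CompactSpace K] in
theorem norm_le_add_of_ptwise {a b : C(K, E)} [CompactSpace K] (h : ∀ t, a t = 0 ∨ b t = 0) :
    ‖a‖ ≤ ‖a + b‖ := by
  rw [ContinuousMap.norm_le _ (norm_nonneg _)]
  intro t
  rcases h t with h | h
  · simp [h]
  · have := (a + b).norm_coe_le_norm t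
    simpa [h] using this

/-- The norm is attained. -/
theorem exists_peak [Nonempty K] (x : C(K, E)) : ∃ t, ‖x t‖ = ‖x‖ := by
  obtain ⟨t, -, ht⟩ := isCompact_univ.exists_isMaxOn Set.univ_nonempty
    (f := fun s => ‖x s‖) (by fun_prop)
  refine ⟨t, le_antisymm (x.norm_coe_le_norm t) ?_⟩
  rw [ContinuousMap.norm_le _ (norm_nonneg _)]
  exact fun s => ht (Set.mem_univ s)

/-- The bump function: `1` at `t`, below `1` elsewhere, `0` off the ball of radius `ρ`. -/
noncomputable def bump (t : K) (ρ : ℝ) : C(K, ℝ) :=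
  ⟨fun s => max 0 (1 - dist s t / ρ), by fun_prop (disch := skip)⟩


omit [CompactSpace K] in
theorem bump_apply (t : K) (ρ : ℝ) (s : K) : bump t ρ s = max 0 (1 - dist s t / ρ) := rfl

omit [CompactSpace K] in
theorem bump_nonneg (t : K) (ρ : ℝ) (s : K) : 0 ≤ bump t ρ s := le_max_left _ _

omit [CompactSpace K] in
theorem bump_le_one {ρ : ℝ} (hρ : 0 < ρ) (t s : K) : bump t ρ s ≤ 1 := by
  rw [bump_apply]
  refine max_le zero_le_one ?_
  have : 0 ≤ dist s t / ρ := by positivity
  linarith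

omit [CompactSpace K] in
theorem bump_self {ρ : ℝ} (t : K) : bump t ρ t = 1 := by
  simp [bump_apply]

omit [CompactSpace K] in
theorem eq_of_bump_eq_one {ρ : ℝ} (hρ : 0 < ρ) {t s : K} (h : bump t ρ s = 1) : s = t := by
  rw [bump_apply] at h
  rcases max_choice 0 (1 - dist s t / ρ) with h' | h'
  · rw [h'] at h; norm_num at h
  · rw [h'] at h
    have h1 : dist s t / ρ = 0 := by linarith
    rw [div_eq_zero_iff] at h1
    rcases h1 with h1 | h1
    · exact dist_eq_zero.mp h1
    · exact absurd h1 hρ.ne'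

omit [CompactSpace K] in
theorem bump_eq_zero {ρ : ℝ} (hρ : 0 < ρ) {t s : K} (h : ρ ≤ dist s t) : bump t ρ s = 0 := by
  rw [bump_apply]
  refine max_eq_left ?_
  have : 1 ≤ dist s t / ρ := (one_le_div hρ).2 h
  linarith

omit [CompactSpace K] in
theorem dist_lt_of_bump_ne {ρ : ℝ} (hρ : 0 < ρ) {t s : K} (h : bump t ρ s ≠ 0) : dist s t < ρ := by
  by_contra h'
  exact h (bump_eq_zero hρ (not_lt.mp h'))

variable [NormedSpace ℝ E]

/-- The node section. -/
noncomputable def sec (a : C(K, E)) (τ ρ : ℝ) (N : Finset K) (z : N → E) : C(K, E) :=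
  ⟨fun s => (τ * (1 - ∑ i : N, bump (i : K) ρ s)) • a s + ∑ i : N, bump (i : K) ρ s • z i, by
    refine Continuous.add (Continuous.smul ?_ a.continuous) ?_
    · exact continuous_const.mul (continuous_const.sub
        (continuous_finset_sum _ fun i _ => (bump (i : K) ρ).continuous))
    · exact continuous_finset_sum _ fun i _ => ((bump (i : K) ρ).continuous).smul continuous_const⟩

omit [CompactSpace K] in
theorem sec_apply (a : C(K, E)) (τ ρ : ℝ) (N : Finset K) (z : N → E) (s : K) :
    sec a τ ρ N z s = (τ * (1 - ∑ i : N, bump (i : K) ρ s)) • a s + ∑ i : N, bump (i : K) ρ s • z i :=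
  rfl

omit [CompactSpace K] in
/-- If only the `i`-th bump can be nonzero at `s`. -/
theorem sec_single (a : C(K, E)) (τ ρ : ℝ) (N : Finset K) (z : N → E) {s : K} {i : N}
    (h : ∀ j : N, j ≠ i → bump (j : K) ρ s = 0) :
    sec a τ ρ N z s = (τ * (1 - bump (i : K) ρ s)) • a s + bump (i : K) ρ s • z i := by
  rw [sec_apply, Finset.sum_eq_single i (fun j _ hj => h j hj) (by simp),
    Finset.sum_eq_single i (fun j _ hj => by rw [h j hj, zero_smul]) (by simp)]

omit [CompactSpace K] [NormedSpace ℝ E] [NormedAddCommGroup E] in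
/-- At each point at most one bump is nonzero. -/
theorem exists_single {ρ : ℝ} (hρ : 0 < ρ) {N : Finset K} (hN : N.Nonempty)
    (hsep : ∀ i ∈ N, ∀ j ∈ N, i ≠ j → 2 * ρ ≤ dist i j) (s : K) :
    ∃ i : N, ∀ j : N, j ≠ i → bump (j : K) ρ s = 0 := by
  by_cases h : ∃ i : N, bump (i : K) ρ s ≠ 0
  · obtain ⟨i, hi⟩ := h
    refine ⟨i, fun j hj => ?_⟩
    by_contra hj'
    have h1 := dist_lt_of_bump_ne hρ hi
    have h2 := dist_lt_of_bump_ne hρ hj'
    have hne : (i : K) ≠ j := fun e => hj (Subtype.ext e.symm)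
    have h3 := hsep i i.2 j j.2 hne
    have h4 := dist_triangle_left (i : K) j s
    linarith
  · push_neg at h
    obtain ⟨i, hi⟩ := hN
    exact ⟨⟨i, hi⟩, fun j _ => h j⟩

/-- A section of the evaluation map at finitely many nodes. -/
structure IsSection (a : C(K, E)) (W : Set K) (δ : ℝ) (N : Finset K)
    (S : (N → E) → C(K, E)) : Prop where
  mem_W : ∀ i ∈ N, i ∈ W
  unit : ∀ z : N → E, ‖z‖ = 1 → ‖S z‖ = 1
  lip : ∀ z z' : N → E, ‖S z - S z'‖ ≤ ‖z - z'‖
  eval : ∀ (z : N → E) (i : N), S z i = z i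
  peak : ∀ z : N → E, ‖z‖ = 1 → ∀ t, ‖S z t‖ = 1 → t ∈ N
  sep : ∀ (z : N → E) (x : C(K, E)), Sep a x → (∀ s ∈ W, Near0 x s) → Sep (S z) x
  approx : ‖S (fun i => a i) - a‖ ≤ δ

theorem exists_section {a : C(K, E)} (ha : ‖a‖ = 1) {W : Set K} (hW : IsOpen W) {t₀ t₁ : K}
    (h₀ : t₀ ∈ W) (h₁ : t₁ ∈ W) {δ : ℝ} (hδ : 0 < δ) :
    ∃ (N : Finset K) (S : (N → E) → C(K, E)), t₀ ∈ N ∧ t₁ ∈ N ∧ IsSection a W δ N S := by
  classical
  set η : ℝ := min δ 1 / 2 with hη
  have hη0 : 0 < η := by positivity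
  have hηδ : η ≤ δ := by
    have := min_le_left δ 1
    linarith
  have hη1 : η ≤ 1 / 2 := by
    have := min_le_right δ 1
    linarith
  set τ : ℝ := 1 - η with hτ
  have hτ0 : 0 ≤ τ := by linarith
  have hτ1 : τ < 1 := by linarith
  obtain ⟨e₁, he₁, hb₁⟩ := Metric.isOpen_iff.mp hW t₀ h₀
  obtain ⟨e₂, he₂, hb₂⟩ := Metric.isOpen_iff.mp hW t₁ h₁
  obtain ⟨e₃, he₃, hc₃⟩ := Metric.continuous_iff.mp a.continuous t₀ η hη0
  obtain ⟨e₄, he₄, hc₄⟩ := Metric.continuous_iff.mp a.continuous t₁ η hη0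
  set D : ℝ := if t₀ = t₁ then 1 else dist t₀ t₁ with hD
  have hD0 : 0 < D := by
    rw [hD]
    split_ifs with h
    · exact one_pos
    · exact dist_pos.mpr h
  set ρ : ℝ := min (min (e₁ / 2) (e₂ / 2)) (min (min e₃ e₄) (D / 2)) with hρdef
  have hρ : 0 < ρ := by positivity
  have hρ1 : ρ ≤ e₁ / 2 := (min_le_left _ _).trans (min_le_left _ _)
  have hρ2 : ρ ≤ e₂ / 2 := (min_le_left _ _).trans (min_le_right _ _)
  have hρ3 : ρ ≤ e₃ := (min_le_right _ _).trans ((min_le_left _ _).trans (min_le_left _ _))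
  have hρ4 : ρ ≤ e₄ := (min_le_right _ _).trans ((min_le_left _ _).trans (min_le_right _ _))
  have hρ5 : ρ ≤ D / 2 := (min_le_right _ _).trans (min_le_right _ _)
  set N : Finset K := {t₀, t₁} with hN
  have hmem : ∀ i, i ∈ N ↔ i = t₀ ∨ i = t₁ := fun i => by simp [hN]
  have hNne : N.Nonempty := ⟨t₀, (hmem _).2 (Or.inl rfl)⟩
  have hsep : ∀ i ∈ N, ∀ j ∈ N, i ≠ j → 2 * ρ ≤ dist i j := by
    intro i hi j hj hij
    have hne : t₀ ≠ t₁ := by
      rcases (hmem i).1 hi with rfl | rfl <;> rcases (hmem j).1 hj with rfl | rfl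
      · exact absurd rfl hij
      · exact hij
      · exact hij.symm
      · exact absurd rfl hij
    have hDe : D = dist t₀ t₁ := by rw [hD, if_neg hne]
    rcases (hmem i).1 hi with rfl | rfl <;> rcases (hmem j).1 hj with rfl | rfl
    · exact absurd rfl hij
    · rw [← hDe]; linarith
    · rw [dist_comm, ← hDe]; linarith
    · exact absurd rfl hij
  have hball : ∀ i ∈ N, ∀ s, dist s i < 2 * ρ → s ∈ W := by
    intro i hi s hs
    rcases (hmem i).1 hi with rfl | rfl
    · exact hb₁ (Metric.mem_ball.2 (by linarith))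
    · exact hb₂ (Metric.mem_ball.2 (by linarith))
  have hosc : ∀ i ∈ N, ∀ s, dist s i < ρ → ‖a i - a s‖ ≤ η := by
    intro i hi s hs
    rcases (hmem i).1 hi with rfl | rfl
    · have := hc₃ s (by linarith)
      rw [dist_eq_norm, norm_sub_rev] at this
      exact this.le
    · have := hc₄ s (by linarith)
      rw [dist_eq_norm, norm_sub_rev] at this
      exact this.le
  have hone := fun (i : N) s => bump_le_one hρ (i : K) s
  have hnn := fun (i : N) s => bump_nonneg (i : K) ρ s
  -- pointwise bound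
  have hbd : ∀ (z : N → E), ‖z‖ ≤ 1 → ∀ (s : K) (i : N),
      ‖(τ * (1 - bump (i : K) ρ s)) • a s + bump (i : K) ρ s • z i‖ ≤
        τ * (1 - bump (i : K) ρ s) + bump (i : K) ρ s := by
    intro z hz s i
    have h1 : ‖a s‖ ≤ 1 := ha ▸ a.norm_coe_le_norm s
    have h2 : ‖z i‖ ≤ 1 := (norm_le_pi_norm z i).trans hz
    have h3 := hone i s
    have h4 := hnn i s
    calc _ ≤ ‖(τ * (1 - bump (i : K) ρ s)) • a s‖ + ‖bump (i : K) ρ s • z i‖ := norm_add_le _ _
      _ = (τ * (1 - bump (i : K) ρ s)) * ‖a s‖ + bump (i : K) ρ s * ‖z i‖ := by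
        rw [norm_smul, norm_smul, Real.norm_eq_abs, Real.norm_eq_abs, abs_of_nonneg h4,
          abs_of_nonneg (mul_nonneg hτ0 (by linarith))]
      _ ≤ _ := by
        have h5 : 0 ≤ τ * (1 - bump (i : K) ρ s) := mul_nonneg hτ0 (by linarith)
        nlinarith
  have hval : ∀ (i : N) (z : N → E), sec a τ ρ N z i = z i := by
    intro i z
    obtain ⟨i', hi'⟩ := exists_single hρ hNne hsep (i : K)
    have hii : i' = i := by
      by_contra hne
      have := hi' i (fun e => hne e.symm)
      rw [bump_self] at this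
      norm_num at this
    subst hii
    rw [sec_single a τ ρ N z hi', bump_self]
    simp
  refine ⟨N, sec a τ ρ N, (hmem _).2 (Or.inl rfl), (hmem _).2 (Or.inr rfl), ?_⟩
  refine ⟨fun i hi => hball i hi i (by rw [dist_self]; positivity), fun z hz => ?_, fun z z' => ?_,
    fun z i => hval i z, fun z hz t ht => ?_, fun z x hax hxW t => ?_, ?_⟩
  · apply le_antisymm
    · rw [ContinuousMap.norm_le _ zero_le_one]
      intro s
      obtain ⟨i, hi⟩ := exists_single hρ hNne hsep s
      rw [sec_single a τ ρ N z hi]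
      refine (hbd z hz.le s i).trans ?_
      have h3 := hone i s
      have h4 := hnn i s
      nlinarith
    · rw [← hz]
      refine (pi_norm_le_iff_of_nonneg (norm_nonneg _)).2 fun i => ?_
      rw [← hval i z]
      exact ContinuousMap.norm_coe_le_norm _ _
  · rw [ContinuousMap.norm_le _ (norm_nonneg _)]
    intro s
    obtain ⟨i, hi⟩ := exists_single hρ hNne hsep s
    rw [ContinuousMap.sub_apply, sec_single a τ ρ N z hi, sec_single a τ ρ N z' hi]
    have e : (τ * (1 - bump (i : K) ρ s)) • a s + bump (i : K) ρ s • z i -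
        ((τ * (1 - bump (i : K) ρ s)) • a s + bump (i : K) ρ s • z' i) =
        bump (i : K) ρ s • (z i - z' i) := by
      module
    rw [e, norm_smul, Real.norm_eq_abs, abs_of_nonneg (hnn i s)]
    have h1 : ‖z i - z' i‖ ≤ ‖z - z'‖ := norm_le_pi_norm (z - z') i
    have h3 := hone i s
    have h4 := hnn i s
    have h5 := norm_nonneg (z i - z' i)
    nlinarith
  · obtain ⟨i, hi⟩ := exists_single hρ hNne hsep t
    have h0 := hbd z hz.le t i
    rw [← sec_single a τ ρ N z hi, ht] at h0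
    have h3 := hone i t
    have h6 : bump (i : K) ρ t = 1 := by
      by_contra hne
      have h7 : bump (i : K) ρ t < 1 := lt_of_le_of_ne h3 hne
      nlinarith
    rw [eq_of_bump_eq_one hρ h6]
    exact i.2
  · by_cases htW : t ∈ W
    · exact Or.inr (hxW t htW)
    rcases hax t with h | h
    · left
      have hfar : ∀ i : N, 2 * ρ ≤ dist t i := fun i => by
        by_contra hlt
        exact htW (hball i i.2 t (not_le.mp (by rw [dist_comm]; rw [dist_comm]; exact hlt)))
      have hnear : ∀ᶠ s in 𝓝 t, dist s t < ρ := Metric.ball_mem_nhds t hρ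
      filter_upwards [h, hnear] with s hs hst
      have hb0 : ∀ i : N, bump (i : K) ρ s = 0 := by
        intro i
        refine bump_eq_zero hρ ?_
        have h8 := hfar i
        have h9 := dist_triangle t s i
        rw [dist_comm t s] at h9
        linarith
      rw [sec_apply, hs]
      simp [hb0]
    · exact Or.inr h
  · refine le_trans ?_ hηδ
    rw [ContinuousMap.norm_le _ hη0.le]
    intro s
    obtain ⟨i, hi⟩ := exists_single hρ hNne hsep s
    rw [ContinuousMap.sub_apply, sec_single a τ ρ N _ hi]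
    set β := bump (i : K) ρ s with hβ
    have e : (τ * (1 - β)) • a s + β • a i - a s =
        (-(η * (1 - β))) • a s + β • (a i - a s) := by
      rw [hτ]
      module
    rw [e]
    have h3 : β ≤ 1 := hone i s
    have h4 : 0 ≤ β := hnn i s
    have h1 : ‖a s‖ ≤ 1 := ha ▸ a.norm_coe_le_norm s
    calc _ ≤ ‖(-(η * (1 - β))) • a s‖ + ‖β • (a i - a s)‖ := norm_add_le _ _
      _ = (η * (1 - β)) * ‖a s‖ + β * ‖a i - a s‖ := by
        rw [norm_smul, norm_smul, Real.norm_eq_abs, Real.norm_eq_abs, abs_neg, abs_of_nonneg h4,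
          abs_of_nonneg (mul_nonneg hη0.le (by linarith))]
      _ ≤ (η * (1 - β)) * 1 + β * η := by
        refine add_le_add (mul_le_mul_of_nonneg_left h1 (mul_nonneg hη0.le (by linarith))) ?_
        by_cases hβ0 : β = 0
        · rw [hβ0]; simp
        · exact mul_le_mul_of_nonneg_left (hosc i i.2 s (dist_lt_of_bump_ne hρ hβ0)) h4
      _ = η := by ring

end Vale.Agent.Lib.P084.CK
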