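/-
Tingley's problem for `C(K, E)`: additivity at disjointly supported functions, by Theorem A applied
on the sphere of the finite sums of `E` given by the values at one or two nodes.
-/
import Vale.Agent.Lib.P084.CK.Basic

namespace Vale.Agent.Lib.P084.CK

open Vale.Agent.Lib.P084.UC Vale.Agent.Lib.P084.Inf
open Filter Topology

variable {K : Type*} [MetricSpace K] [CompactSpace K] [Nonempty K] {E : Type*}
  [NormedAddCommGroup E] [NormedSpace ℝ E] {Y : Type*} [NormedAddCommGroup Y] [NormedSpace ℝ Y]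

/-- A surjective sphere isometry with a chosen inverse. -/
structure SI (f : C(K, E) → Y) (g : Y → C(K, E)) : Prop where
  hf : IsSphereIso f
  hg : IsSphereIso g
  gf : ∀ x : C(K, E), ‖x‖ = 1 → g (f x) = x
  fg : ∀ y : Y, ‖y‖ = 1 → f (g y) = y

omit [Nonempty K] [NormedSpace ℝ E] in
theorem norm_eval_le (h : C(K, E)) (N : Finset K) : ‖(fun i : N => h i)‖ ≤ ‖h‖ :=
  (pi_norm_le_iff_of_nonneg (norm_nonneg _)).2 fun i => h.norm_coe_le_norm _

omit [NormedSpace ℝ E] in
theorem exists_unit_peak {x : C(K, E)} (hx : ‖x‖ = 1) : ∃ t, ‖x t‖ = 1 := by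
  obtain ⟨t, ht⟩ := exists_peak x
  exact ⟨t, ht.trans hx⟩

omit [Nonempty K] [NormedSpace ℝ E] in
theorem ne_zero_of_norm_one {x : C(K, E)} {t : K} (h : ‖x t‖ = 1) : x t ≠ 0 := by
  intro h0
  rw [h0, norm_zero] at h
  norm_num at h

omit [Nonempty K] in
/-- Norm of a disjoint sum. -/
theorem norm_add_sep {x b : C(K, E)} (hx : ‖x‖ = 1) (hb : ‖b‖ ≤ 1) (h : Sep x b) : ‖x + b‖ = 1 := by
  apply le_antisymm
  · exact norm_add_le_of_ptwise h.ptwise zero_le_one hx.le hb
  · rw [← hx]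
    exact norm_le_add_of_ptwise h.ptwise

omit [CompactSpace K] [Nonempty K] in
theorem Sep.smul {a x : C(K, E)} (h : Sep a x) (c : ℝ) : Sep a (c • x) := fun t =>
  (h t).imp id fun h' => h'.of_imp fun s hs => by simp [hs]

omit [CompactSpace K] [Nonempty K] in
theorem Sep.add {a x y : C(K, E)} (hx : Sep a x) (hy : Sep a y) : Sep a (x + y) := fun t => by
  rcases hx t with h | h
  · exact Or.inl h
  · rcases hy t with h' | h'
    · exact Or.inl h'
    · exact Or.inr (h.add h')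

namespace SI

variable {f : C(K, E) → Y} {g : Y → C(K, E)}

omit [Nonempty K] in
theorem odd (D : SI f g) {x : C(K, E)} (hx : ‖x‖ = 1) : f (-x) = -f x :=
  odd_of_isSphereIso D.hf hx

omit [Nonempty K] in
theorem norm_add (D : SI f g) {a b : C(K, E)} (ha : ‖a‖ = 1) (hb : ‖b‖ = 1) :
    ‖f a + f b‖ = ‖a + b‖ := by
  have h := D.hf.iso a (-b) ha (by rw [norm_neg]; exact hb)
  rw [D.odd hb, sub_neg_eq_add, sub_neg_eq_add] at h
  exact h

/-- The basic use of Theorem A. -/
theorem fix (D : SI f g) {N : Finset K} {S : (N → E) → C(K, E)}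
    (h1 : ∀ z : N → E, ‖z‖ = 1 → ‖S z‖ = 1)
    (h4 : ∀ z : N → E, ‖z‖ = 1 → ∀ t, ‖S z t‖ = 1 → t ∈ N)
    (h3 : ∀ (z : N → E) (i : N), S z i = z i)
    (y : (N → E) → Y) (hy1 : ∀ z : N → E, ‖z‖ = 1 → ‖y z‖ = 1)
    (hy2 : ∀ z z' : N → E, ‖z‖ = 1 → ‖z'‖ = 1 → ‖y z - y z'‖ ≤ ‖z - z'‖)
    (hy3 : ∀ z : N → E, ‖z‖ = 1 → ‖y z + f (S z)‖ = 2) {z : N → E} (hz : ‖z‖ = 1) (i : N) :
    g (y z) i = z i := by
  have hcof : ∀ z : N → E, ‖z‖ = 1 → ‖z + (fun i : N => g (y z) i)‖ = 2 := by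
    intro z hz
    have hh : ‖g (y z)‖ = 1 := D.hg.norm_eq _ (hy1 z hz)
    have hx := h1 z hz
    have e : ‖g (y z) + S z‖ = 2 := by
      rw [← D.norm_add hh hx, D.fg _ (hy1 z hz)]
      exact hy3 z hz
    obtain ⟨t, ht⟩ := exists_peak (g (y z) + S z)
    rw [e, ContinuousMap.add_apply] at ht
    have h5 : ‖g (y z) t‖ ≤ 1 := hh ▸ (g (y z)).norm_coe_le_norm t
    have h6 : ‖S z t‖ ≤ 1 := hx ▸ (S z).norm_coe_le_norm t
    have h7 := norm_add_le (g (y z) t) (S z t)
    have h8 : ‖S z t‖ = 1 := by linarith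
    have htN := h4 z hz t h8
    apply le_antisymm
    · refine (norm_add_le _ _).trans ?_
      have := norm_eval_le (g (y z)) N
      linarith
    · have h9 := norm_le_pi_norm (z + (fun i : N => g (y z) i)) ⟨t, htN⟩
      have h10 : (z + (fun i : N => g (y z) i)) ⟨t, htN⟩ = S z t + g (y z) t := by
        simp [h3 z ⟨t, htN⟩]
      rw [h10, add_comm, ht] at h9
      exact h9
  have := eq_self_of_cofacial (Ξ := fun z : N → E => fun i : N => g (y z) i) (fun z hz => ?_)
    (fun a b ha hb => ?_) hcof hz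
  · exact congrFun this i
  · apply le_antisymm
    · have := norm_eval_le (g (y z)) N
      rwa [D.hg.norm_eq _ (hy1 z hz)] at this
    · have h5 := norm_add_le z (fun i : N => g (y z) i)
      rw [hcof z hz, hz] at h5
      linarith
  · refine ((norm_eval_le (g (y a) - g (y b)) N).trans ?_).trans (hy2 a b ha hb)
    rw [D.hg.iso _ _ (hy1 a ha) (hy1 b hb)]

/-- The local identification: the value at `t₀` of `g (f a + w)` is `a t₀`. -/
theorem local_eq (D : SI f g) {a : C(K, E)} (ha : ‖a‖ = 1) {w : Y} {W : Set K} (hW : IsOpen W)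
    {t₀ t₁ : K} (h₀ : t₀ ∈ W) (h₁ : t₁ ∈ W) (hpk : ‖a t₁‖ = 1)
    (hw : ∀ x : C(K, E), ‖x‖ = 1 → (∀ b : C(K, E), Sep a b → (∀ s ∈ W, Near0 b s) → Sep x b) →
      ‖f x + w‖ = 1 ∧ ‖f x + w + f x‖ = 2) :
    g (f a + w) t₀ = a t₀ := by
  have hmain : ∀ δ : ℝ, 0 < δ → ‖g (f a + w) t₀ - a t₀‖ ≤ δ := by
    intro δ hδ
    obtain ⟨N, S, ht₀, ht₁, IS⟩ := exists_section ha hW h₀ h₁ hδ
    set z₀ : N → E := fun i => a i with hz₀
    have hz₀1 : ‖z₀‖ = 1 := by
      apply le_antisymm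
      · have := norm_eval_le a N
        rwa [ha] at this
      · rw [← hpk]
        exact norm_le_pi_norm z₀ ⟨t₁, ht₁⟩
    have hfix := D.fix IS.unit IS.peak IS.eval (fun z => f (S z) + w)
      (fun z hz => (hw _ (IS.unit z hz) (IS.sep z)).1)
      (fun z z' hz hz' => by
        simp only [add_sub_add_right_eq_sub]
        rw [D.hf.iso _ _ (IS.unit z hz) (IS.unit z' hz')]
        exact IS.lip z z')
      (fun z hz => (hw _ (IS.unit z hz) (IS.sep z)).2) hz₀1 ⟨t₀, ht₀⟩
    simp only at hfix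
    have hu1 := (hw a ha fun b hab _ => hab).1
    have hu2 := (hw _ (IS.unit z₀ hz₀1) (IS.sep z₀)).1
    have e : g (f a + w) t₀ - a t₀ = (g (f a + w) - g (f (S z₀) + w)) t₀ := by
      rw [ContinuousMap.sub_apply, hfix]
    rw [e]
    refine (ContinuousMap.norm_coe_le_norm _ _).trans ?_
    rw [D.hg.iso _ _ hu1 hu2, add_sub_add_right_eq_sub, D.hf.iso _ _ ha (IS.unit z₀ hz₀1),
      norm_sub_rev]
    exact IS.approx
  have h0 : ‖g (f a + w) t₀ - a t₀‖ ≤ 0 := le_of_forall_pos_le_add fun δ hδ => by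
    simpa using hmain δ hδ
  exact sub_eq_zero.1 (norm_le_zero_iff.1 h0)

omit [Nonempty K] in
/-- Two disjointly supported unit vectors. -/
theorem sep_facts (D : SI f g) {x b : C(K, E)} (hx : ‖x‖ = 1) (hb : ‖b‖ = 1) (h : Sep x b) :
    ‖f x + f b‖ = 1 ∧ ‖f x + f b + f x‖ = 2 := by
  refine ⟨by rw [D.norm_add hx hb]; exact norm_add_sep hx hb.le h, ?_⟩
  have hy : ‖-b‖ = 1 := by rw [norm_neg]; exact hb
  have hyx : ‖-b - x‖ = 1 := by
    have e : -b - x = -(x + b) := by abel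
    rw [e, norm_neg]
    exact norm_add_sep hx hb.le h
  have hd := D.hf.doubling hx hy hyx
  rw [D.odd hb] at hd
  have e2 : x - (1 / 2 : ℝ) • -b = x + (1 / 2 : ℝ) • b := by
    rw [smul_neg, sub_neg_eq_add]
  rw [e2, norm_add_sep hx (by rw [norm_smul, hb]; norm_num) (h.smul _)] at hd
  have e3 : f x + f b + f x = (2 : ℝ) • (f x - (1 / 2 : ℝ) • -f b) := by
    module
  rw [e3, norm_smul, hd]
  norm_num

omit [Nonempty K] in
theorem seg_facts (D : SI f g) {x b : C(K, E)} (hx : ‖x‖ = 1) (hb : ‖b‖ = 1) (h : Sep x b) {r : ℝ}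
    (hr0 : 0 ≤ r) (hr1 : r ≤ 1) : ‖f x + r • f b‖ = 1 ∧ ‖f x + r • f b + f x‖ = 2 := by
  obtain ⟨h1, h2⟩ := D.sep_facts hx hb h
  have ha : ‖f x‖ = 1 := D.hf.norm_eq _ hx
  have hab : ‖f x + (f x + f b)‖ = 2 := by
    rw [← h2]
    congr 1
    abel
  constructor
  · have := norm_comb_eq_one ha h1 hab (s := 1 - r) (t := r) (by linarith) hr0 (by ring)
    have e : (1 - r) • f x + r • (f x + f b) = f x + r • f b := by module
    rwa [e] at this
  · have := norm_comb_eq_one ha h1 hab (s := 1 - r / 2) (t := r / 2) (by linarith) (by linarith)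
      (by ring)
    have e : f x + r • f b + f x = (2 : ℝ) • ((1 - r / 2) • f x + (r / 2) • (f x + f b)) := by
      module
    rw [e, norm_smul, this]
    norm_num

/-- Step A and B, first half: the value at points where `b` vanishes nearby. -/
theorem coord_of_near (D : SI f g) {a b : C(K, E)} (ha : ‖a‖ = 1) (hb : ‖b‖ = 1) (h : Sep a b)
    {r : ℝ} (hr0 : 0 ≤ r) (hr1 : r ≤ 1) {t₀ : K} (ht : Near0 b t₀) :
    g (f a + r • f b) t₀ = a t₀ := by
  obtain ⟨t₁, ht₁⟩ := exists_unit_peak ha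
  refine D.local_eq ha (isOpen_near0 b) ht (h.near_of_ne (ne_zero_of_norm_one ht₁)) ht₁ ?_
  intro x hx hallow
  exact D.seg_facts hx hb (hallow b h fun s hs => hs) hr0 hr1

/-- Step A. -/
theorem g_add_of_sep (D : SI f g) {a b : C(K, E)} (ha : ‖a‖ = 1) (hb : ‖b‖ = 1) (h : Sep a b) :
    g (f a + f b) = a + b := by
  ext t
  rw [ContinuousMap.add_apply]
  rcases h t with h' | h'
  · have := D.coord_of_near hb ha h.symm zero_le_one le_rfl h'
    rw [one_smul, add_comm] at this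
    rw [this, h'.self, zero_add]
  · have := D.coord_of_near ha hb h zero_le_one le_rfl h'
    rw [one_smul] at this
    rw [this, h'.self, add_zero]

theorem f_add_of_sep (D : SI f g) {a b : C(K, E)} (ha : ‖a‖ = 1) (hb : ‖b‖ = 1) (h : Sep a b) :
    f (a + b) = f a + f b := by
  rw [← D.g_add_of_sep ha hb h]
  exact D.fg _ (D.sep_facts ha hb h).1

/-- Step B, second half: the value at points where `a` vanishes nearby. -/
theorem coord_r (D : SI f g) {a b : C(K, E)} (ha : ‖a‖ = 1) (hb : ‖b‖ = 1) (h : Sep a b)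
    {r : ℝ} (hr0 : 0 < r) (hr1 : r < 1) {t₀ : K} (ht : Near0 a t₀) :
    g (f a + r • f b) t₀ = r • b t₀ := by
  have hmain : ∀ δ : ℝ, 0 < δ → ‖g (f a + r • f b) t₀ - r • b t₀‖ ≤ δ := by
    intro δ hδ
    obtain ⟨t₁, ht₁⟩ := exists_unit_peak hb
    have ht₁' : Near0 a t₁ := h.symm.near_of_ne (ne_zero_of_norm_one ht₁)
    obtain ⟨N, S, ht₀, ht₁N, IS⟩ := exists_section hb (isOpen_near0 a) ht ht₁' hδ
    have hS : ∀ z : N → E, Sep a (S z) := fun z => (IS.sep z a h.symm fun s hs => hs).symm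
    have hπ : ∀ i : N, a i = 0 := fun i => (IS.mem_W i i.2 : Near0 a i).self
    set c : (N → E) → C(K, E) := fun z => g (f a + r • f (S z)) with hc
    have hcu : ∀ z : N → E, ‖z‖ = 1 → ‖f a + r • f (S z)‖ = 1 := fun z hz =>
      (D.seg_facts ha (IS.unit z hz) (hS z) hr0.le hr1.le).1
    have hcn : ∀ z : N → E, ‖z‖ = 1 → ‖c z‖ = 1 := fun z hz => D.hg.norm_eq _ (hcu z hz)
    have hfc : ∀ z : N → E, ‖z‖ = 1 → f (c z) = f a + r • f (S z) := fun z hz => D.fg _ (hcu z hz)
    have hfS : ∀ z : N → E, ‖z‖ = 1 → ‖f (S z)‖ = 1 := fun z hz => D.hf.norm_eq _ (IS.unit z hz)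
    set ζ : (N → E) → (N → E) := fun z i => c z i with hζ
    have hζ1 : ∀ z : N → E, ‖z‖ = 1 → ‖ζ z‖ ≤ r := by
      intro z hz
      refine (pi_norm_le_iff_of_nonneg hr0.le).2 fun i => ?_
      have e : ζ z i = (c z - a) i := by
        simp [hζ, hπ i]
      rw [e]
      refine ((c z - a).norm_coe_le_norm _).trans ?_
      rw [← D.hf.iso _ _ (hcn z hz) ha, hfc z hz, add_sub_cancel_left, norm_smul, hfS z hz,
        Real.norm_eq_abs, abs_of_pos hr0, mul_one]
    have hζ2 : ∀ z : N → E, ‖z‖ = 1 → ‖z - ζ z‖ ≤ 1 - r := by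
      intro z hz
      refine (pi_norm_le_iff_of_nonneg (by linarith)).2 fun i => ?_
      have hu : ‖a + S z‖ = 1 := norm_add_sep ha (IS.unit z hz).le (hS z)
      have e : (z - ζ z) i = ((a + S z) - c z) i := by
        simp [hζ, hπ i, IS.eval z i]
      rw [e]
      refine (((a + S z) - c z).norm_coe_le_norm _).trans ?_
      rw [← D.hf.iso _ _ hu (hcn z hz), hfc z hz, D.f_add_of_sep ha (IS.unit z hz) (hS z)]
      have e2 : f a + f (S z) - (f a + r • f (S z)) = (1 - r) • f (S z) := by module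
      rw [e2, norm_smul, hfS z hz, Real.norm_eq_abs, abs_of_pos (by linarith), mul_one]
    have hζ3 : ∀ z z' : N → E, ‖z‖ = 1 → ‖z'‖ = 1 → ‖ζ z - ζ z'‖ ≤ r * ‖z - z'‖ := by
      intro z z' hz hz'
      have e : ζ z - ζ z' = fun i : N => (c z - c z') i := by
        funext i
        simp [hζ]
      rw [e]
      refine (norm_eval_le _ N).trans ?_
      rw [← D.hf.iso _ _ (hcn z hz) (hcn z' hz'), hfc z hz, hfc z' hz']
      have e2 : f a + r • f (S z) - (f a + r • f (S z')) = r • (f (S z) - f (S z')) := by module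
      rw [e2, norm_smul, D.hf.iso _ _ (IS.unit z hz) (IS.unit z' hz'), Real.norm_eq_abs,
        abs_of_pos hr0]
      exact mul_le_mul_of_nonneg_left (IS.lip z z') hr0.le
    have hζn : ∀ z : N → E, ‖z‖ = 1 → ‖ζ z‖ = r := by
      intro z hz
      refine le_antisymm (hζ1 z hz) ?_
      have h1 := norm_add_le (z - ζ z) (ζ z)
      rw [sub_add_cancel, hz] at h1
      have := hζ2 z hz
      linarith
    have hrinv : ∀ z : N → E, ‖z‖ = 1 → ‖r⁻¹ • ζ z‖ = 1 := fun z hz => by
      rw [norm_smul, hζn z hz, norm_inv, Real.norm_eq_abs, abs_of_pos hr0,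
        inv_mul_cancel₀ hr0.ne']
    have hA : ∀ z : N → E, ‖z‖ = 1 → r⁻¹ • ζ z = z := by
      intro z hz
      refine eq_self_of_cofacial (Ξ := fun z => r⁻¹ • ζ z) hrinv (fun z z' hz hz' => ?_)
        (fun z hz => ?_) hz
      · have e4 : r⁻¹ • ζ z - r⁻¹ • ζ z' = r⁻¹ • (ζ z - ζ z') := by module
        rw [e4, norm_smul, norm_inv, Real.norm_eq_abs, abs_of_pos hr0]
        have h1 := hζ3 z z' hz hz'
        calc r⁻¹ * ‖ζ z - ζ z'‖ ≤ r⁻¹ * (r * ‖z - z'‖) :=
              mul_le_mul_of_nonneg_left h1 (by positivity)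
          _ = ‖z - z'‖ := inv_mul_cancel_left₀ hr0.ne' _
      · apply le_antisymm
        · calc _ ≤ ‖z‖ + ‖r⁻¹ • ζ z‖ := norm_add_le _ _
            _ = 2 := by rw [hz, hrinv z hz]; norm_num
        · have e1 : (1 + r) • z = (r • z + ζ z) + (z - ζ z) := by module
          have e2 : ‖(1 + r) • z‖ = 1 + r := by
            rw [norm_smul, hz, Real.norm_eq_abs, abs_of_nonneg (by linarith)]
            ring
          have e3 : ‖r • z + ζ z‖ ≥ 2 * r := by
            have h1 := norm_add_le (r • z + ζ z) (z - ζ z)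
            rw [← e1, e2] at h1
            have := hζ2 z hz
            linarith
          have e4 : r • z + ζ z = r • (z + r⁻¹ • ζ z) := by
            rw [smul_add, smul_smul, mul_inv_cancel₀ hr0.ne', one_smul]
          rw [e4, norm_smul, Real.norm_eq_abs, abs_of_pos hr0] at e3
          have : r * 2 ≤ r * ‖z + r⁻¹ • ζ z‖ := by linarith
          exact le_of_mul_le_mul_left this hr0
    set z₀ : N → E := fun i => b i with hz₀
    have hz₀1 : ‖z₀‖ = 1 := by
      apply le_antisymm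
      · have := norm_eval_le b N
        rwa [hb] at this
      · rw [← ht₁]
        exact norm_le_pi_norm z₀ ⟨t₁, ht₁N⟩
    have hval : c z₀ t₀ = r • b t₀ := by
      have h1 := hA z₀ hz₀1
      have h2 : ζ z₀ = r • z₀ := by
        rw [← h1, smul_smul, mul_inv_cancel₀ hr0.ne', one_smul, h1]
      have h3 := congrFun h2 ⟨t₀, ht₀⟩
      simpa [hζ] using h3
    have hb0 : ‖f a + r • f b‖ = 1 := (D.seg_facts ha hb h hr0.le hr1.le).1
    have e : g (f a + r • f b) t₀ - r • b t₀ = (g (f a + r • f b) - c z₀) t₀ := by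
      rw [ContinuousMap.sub_apply, hval]
    rw [e]
    refine (ContinuousMap.norm_coe_le_norm _ _).trans ?_
    rw [hc]
    simp only
    rw [D.hg.iso _ _ hb0 (hcu z₀ hz₀1)]
    have e2 : f a + r • f b - (f a + r • f (S z₀)) = r • (f b - f (S z₀)) := by module
    rw [e2, norm_smul, D.hf.iso _ _ hb (IS.unit z₀ hz₀1), Real.norm_eq_abs, abs_of_pos hr0,
      norm_sub_rev]
    have := IS.approx
    have h3 := norm_nonneg (S z₀ - b)
    nlinarith
  have h0 : ‖g (f a + r • f b) t₀ - r • b t₀‖ ≤ 0 := le_of_forall_pos_le_add fun δ hδ => by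
    simpa using hmain δ hδ
  exact sub_eq_zero.1 (norm_le_zero_iff.1 h0)

/-- The radial formula. -/
theorem radial (D : SI f g) {a b : C(K, E)} (ha : ‖a‖ = 1) (hb : ‖b‖ = 1) (h : Sep a b)
    {r : ℝ} (hr0 : 0 ≤ r) (hr1 : r ≤ 1) : f (a + r • b) = f a + r • f b := by
  rcases hr0.eq_or_lt with rfl | hr0'
  · simp
  rcases hr1.eq_or_lt with rfl | hr1'
  · simpa using D.f_add_of_sep ha hb h
  have e : g (f a + r • f b) = a + r • b := by
    ext t
    rw [ContinuousMap.add_apply, ContinuousMap.smul_apply]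
    rcases h t with h' | h'
    · rw [D.coord_r ha hb h hr0' hr1' h', h'.self, zero_add]
    · rw [D.coord_of_near ha hb h hr0 hr1 h', h'.self, smul_zero, add_zero]
  rw [← e]
  exact D.fg _ (D.seg_facts ha hb h hr0 hr1).1

end SI

end Vale.Agent.Lib.P084.CK
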