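/-
Tingley's problem for `C(K, E)`: the radial extension of a sphere isometry is additive on the
functions whose closed support misses the closed support of a given unit vector.
-/
import Vale.Agent.Lib.P084.CK.Steps

namespace Vale.Agent.Lib.P084.CK

open Vale.Agent.Lib.P084.UC Vale.Agent.Lib.P084.Inf Vale.Agent.Lib.P084.MSum
open Filter Topology

variable {K : Type*} [MetricSpace K] [CompactSpace K] [Nonempty K] {E : Type*}
  [NormedAddCommGroup E] [NormedSpace ℝ E] {Y : Type*} [NormedAddCommGroup Y] [NormedSpace ℝ Y]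

namespace SI

variable {f : C(K, E) → Y} {g : Y → C(K, E)}

/-- The radial extension of `f`. -/
noncomputable def V (f : C(K, E) → Y) : C(K, E) → Y := rad f

omit [Nonempty K] in
theorem V_zero : V f 0 = 0 := rad_zero f

theorem f_eq (D : SI f g) {a x : C(K, E)} (ha : ‖a‖ = 1) (h : Sep a x) (hx : ‖x‖ ≤ 1) :
    f (a + x) = f a + V f x := by
  by_cases h0 : x = 0
  · subst h0
    simp [V, rad_zero]
  have hw : ‖‖x‖⁻¹ • x‖ = 1 := norm_inv_smul h0
  have h1 := D.radial ha hw (h.smul _) (norm_nonneg x) hx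
  have h2 : ‖x‖ • ‖x‖⁻¹ • x = x := by
    rw [smul_smul, mul_inv_cancel₀ (norm_ne_zero_iff.mpr h0), one_smul]
  rw [h2] at h1
  exact h1

omit [Nonempty K] in
theorem V_neg (D : SI f g) (x : C(K, E)) : V f (-x) = -V f x := by
  by_cases h0 : x = 0
  · subst h0
    simp [V, rad_zero]
  have hw : ‖‖x‖⁻¹ • x‖ = 1 := norm_inv_smul h0
  have e : ‖x‖⁻¹ • (-x) = -(‖x‖⁻¹ • x) := smul_neg _ _
  have h := D.odd hw
  simp only [V, rad, norm_neg]
  rw [e, h, smul_neg]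

omit [Nonempty K] in
theorem V_smul (D : SI f g) (s : ℝ) (x : C(K, E)) : V f (s • x) = s • V f x := by
  rcases lt_trichotomy s 0 with hs | rfl | hs
  · have e : s • x = -((-s) • x) := by simp
    rw [e, D.V_neg]
    have : V f ((-s) • x) = (-s) • V f x := rad_pos _ (by linarith) x
    rw [this]
    simp
  · simp [V, rad_zero]
  · exact rad_pos _ hs x

omit [Nonempty K] in
theorem norm_V (D : SI f g) (x : C(K, E)) : ‖V f x‖ = ‖x‖ := by
  by_cases h0 : x = 0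
  · subst h0
    simp [V, rad_zero]
  have hw : ‖‖x‖⁻¹ • x‖ = 1 := norm_inv_smul h0
  simp only [V, rad]
  rw [norm_smul, D.hf.norm_eq _ hw, mul_one, norm_norm]

omit [Nonempty K] in
theorem V_unit {x : C(K, E)} (hx : ‖x‖ = 1) : V f x = f x := rad_unit f hx

theorem V_iso_ball (D : SI f g) {a x x' : C(K, E)} (ha : ‖a‖ = 1) (h : Sep a x) (h' : Sep a x')
    (hx : ‖x‖ ≤ 1) (hx' : ‖x'‖ ≤ 1) : ‖V f x - V f x'‖ = ‖x - x'‖ := by
  have e := D.hf.iso _ _ (norm_add_sep ha hx h) (norm_add_sep ha hx' h')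
  rw [D.f_eq ha h hx, D.f_eq ha h' hx', add_sub_add_left_eq_sub, add_sub_add_left_eq_sub] at e
  exact e

theorem V_iso (D : SI f g) {a x x' : C(K, E)} (ha : ‖a‖ = 1) (h : Sep a x) (h' : Sep a x') :
    ‖V f x - V f x'‖ = ‖x - x'‖ := by
  set s : ℝ := (1 + ‖x‖ + ‖x'‖)⁻¹ with hs
  have h0 : 0 < s := by positivity
  obtain ⟨h1, h2⟩ := MSum.SI.scale_bound x x'
  have e := D.V_iso_ball ha (h.smul s) (h'.smul s) h1 h2
  rw [D.V_smul, D.V_smul] at e
  have e3 : s • V f x - s • V f x' = s • (V f x - V f x') := by module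
  have e4 : s • x - s • x' = s • (x - x') := by module
  rw [e3, e4, norm_smul, norm_smul, Real.norm_eq_abs, abs_of_pos h0] at e
  exact mul_left_cancel₀ h0.ne' e

/-- Step C: midpoints. -/
theorem V_mid (D : SI f g) {a x₁ x₂ : C(K, E)} (ha : ‖a‖ = 1) (h₁ : Sep a x₁) (h₂ : Sep a x₂)
    (hx₁ : ‖x₁‖ ≤ 1) (hx₂ : ‖x₂‖ ≤ 1) :
    ∃ ξ : C(K, E), Sep a ξ ∧ (1 / 2 : ℝ) • (V f x₁ + V f x₂) = V f ξ := by
  set m : Y := (1 / 2 : ℝ) • (V f x₁ + V f x₂) with hm
  have hmn : ‖m‖ ≤ 1 := by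
    rw [hm, norm_smul]
    have h3 := norm_add_le (V f x₁) (V f x₂)
    rw [D.norm_V, D.norm_V] at h3
    norm_num
    linarith
  -- the norm facts along `x`
  have hfacts : ∀ x : C(K, E), ‖x‖ = 1 → Sep x x₁ → Sep x x₂ →
      ‖f x + m‖ = 1 ∧ ‖f x + m + f x‖ = 2 := by
    intro x hx hs₁ hs₂
    obtain ⟨t, ht⟩ := exists_unit_peak hx
    have ht₁ : x₁ t = 0 := (hs₁.near_of_ne (ne_zero_of_norm_one ht)).self
    have ht₂ : x₂ t = 0 := (hs₂.near_of_ne (ne_zero_of_norm_one ht)).self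
    have hhalf₁ : ‖(1 / 2 : ℝ) • x₁‖ ≤ 1 := by
      rw [norm_smul]; norm_num; linarith
    have hhalf₂ : ‖(1 / 2 : ℝ) • x₂‖ ≤ 1 := by
      rw [norm_smul]; norm_num; linarith
    have hu₁ := norm_add_sep hx hx₁ hs₁
    have hu₂ := norm_add_sep hx hx₂ hs₂
    have hv₁ := norm_add_sep hx hhalf₁ (hs₁.smul _)
    have hv₂ := norm_add_sep hx hhalf₂ (hs₂.smul _)
    have hlow : ∀ u v : C(K, E), ‖u‖ = 1 → ‖v‖ = 1 → u t = x t → v t = x t → ‖u + v‖ = 2 := by
      intro u v hu hv hut hvt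
      apply le_antisymm
      · have := norm_add_le u v
        linarith
      · have h3 := (u + v).norm_coe_le_norm t
        rw [ContinuousMap.add_apply, hut, hvt, ← two_smul ℝ, norm_smul, ht] at h3
        simpa using h3
    constructor
    · have e : f x + m = (1 / 2 : ℝ) • f (x + x₁) + (1 / 2 : ℝ) • f (x + x₂) := by
        rw [D.f_eq hx hs₁ hx₁, D.f_eq hx hs₂ hx₂, hm]
        module
      rw [e]
      refine norm_comb_eq_one (D.hf.norm_eq _ hu₁) (D.hf.norm_eq _ hu₂) ?_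
        (by norm_num) (by norm_num) (by norm_num)
      rw [D.norm_add hu₁ hu₂]
      exact hlow _ _ hu₁ hu₂ (by simp [ht₁]) (by simp [ht₂])
    · have e : f x + m + f x = f (x + (1 / 2 : ℝ) • x₁) + f (x + (1 / 2 : ℝ) • x₂) := by
        rw [D.f_eq hx (hs₁.smul _) hhalf₁, D.f_eq hx (hs₂.smul _) hhalf₂, D.V_smul, D.V_smul, hm]
        module
      rw [e, D.norm_add hv₁ hv₂]
      exact hlow _ _ hv₁ hv₂ (by simp [ht₁]) (by simp [ht₂])
  set W : Set K := {t | Near0 x₁ t} ∩ {t | Near0 x₂ t} with hW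
  have hWo : IsOpen W := (isOpen_near0 _).inter (isOpen_near0 _)
  obtain ⟨t₁, ht₁⟩ := exists_unit_peak ha
  have ht₁W : t₁ ∈ W :=
    ⟨h₁.near_of_ne (ne_zero_of_norm_one ht₁), h₂.near_of_ne (ne_zero_of_norm_one ht₁)⟩
  have hval : ∀ t ∈ W, g (f a + m) t = a t := by
    intro t ht
    refine D.local_eq ha hWo ht ht₁W ht₁ fun x hx hallow => ?_
    exact hfacts x hx (hallow x₁ h₁ fun s hs => hs.1) (hallow x₂ h₂ fun s hs => hs.2)
  have hu : ‖f a + m‖ = 1 := (hfacts a ha h₁ h₂).1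
  set c : C(K, E) := g (f a + m) with hc
  have hc1 : ‖c‖ = 1 := D.hg.norm_eq _ hu
  have hfc : f c = f a + m := D.fg _ hu
  set ξ : C(K, E) := c - a with hξ
  have hξs : Sep a ξ := by
    intro t
    rcases h₁ t with h | h3
    · exact Or.inl h
    rcases h₂ t with h | h4
    · exact Or.inl h
    right
    have hmem : t ∈ W := ⟨h3, h4⟩
    filter_upwards [hWo.mem_nhds hmem] with s hs
    simp [hξ, hval s hs]
  have hξn : ‖ξ‖ ≤ 1 := by
    rw [hξ, ← D.hf.iso _ _ hc1 ha, hfc, add_sub_cancel_left]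
    exact hmn
  refine ⟨ξ, hξs, ?_⟩
  have h5 := D.f_eq ha hξs hξn
  have e : a + ξ = c := by rw [hξ]; abel
  rw [e, hfc] at h5
  exact add_left_cancel h5

theorem V_add_mem (D : SI f g) {a x x' : C(K, E)} (ha : ‖a‖ = 1) (h : Sep a x) (h' : Sep a x') :
    ∃ ξ : C(K, E), Sep a ξ ∧ V f x + V f x' = V f ξ := by
  set s : ℝ := (1 + ‖x‖ + ‖x'‖)⁻¹ with hs
  have h0 : 0 < s := by positivity
  obtain ⟨h1, h2⟩ := MSum.SI.scale_bound x x'
  obtain ⟨ξ, hξs, hξ⟩ := D.V_mid ha (h.smul s) (h'.smul s) h1 h2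
  refine ⟨(2 * s⁻¹) • ξ, hξs.smul _, ?_⟩
  rw [D.V_smul, ← hξ, D.V_smul, D.V_smul, smul_smul]
  have e : (2 * s⁻¹ * (1 / 2)) • (s • V f x + s • V f x') = (s⁻¹ * s) • (V f x + V f x') := by
    have : 2 * s⁻¹ * (1 / 2) * s = s⁻¹ * s := by ring
    rw [smul_add, smul_smul, smul_smul, smul_add, this]
  rw [e, inv_mul_cancel₀ h0.ne', one_smul]

omit [CompactSpace K] [Nonempty K] in
theorem Sep.zero (a : C(K, E)) : Sep a 0 := fun t => Or.inr (Near0.zero t)

/-- `V` is additive on the functions separated from a unit vector `a`, by Mazur-Ulam. -/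
theorem V_add (D : SI f g) {a x x' : C(K, E)} (ha : ‖a‖ = 1) (h : Sep a x) (h' : Sep a x') :
    V f (x + x') = V f x + V f x' := by
  let J : Submodule ℝ C(K, E) :=
    { carrier := {u | Sep a u}
      add_mem' := fun hu hv => CK.Sep.add hu hv
      zero_mem' := Sep.zero a
      smul_mem' := fun c _ hu => CK.Sep.smul hu c }
  let H : Submodule ℝ Y :=
    { carrier := (V f) '' {u | Sep a u}
      add_mem' := by
        rintro _ _ ⟨u, hu, rfl⟩ ⟨v, hv, rfl⟩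
        obtain ⟨ξ, hξs, hξ⟩ := D.V_add_mem ha hu hv
        exact ⟨ξ, hξs, hξ.symm⟩
      zero_mem' := ⟨0, Sep.zero a, V_zero⟩
      smul_mem' := by
        rintro c _ ⟨u, hu, rfl⟩
        exact ⟨c • u, CK.Sep.smul hu c, D.V_smul c u⟩ }
  let F : J → H := fun u => ⟨V f u, ⟨u, u.2, rfl⟩⟩
  have hFiso : Isometry F := by
    refine Isometry.of_dist_eq fun u v => ?_
    rw [Subtype.dist_eq, Subtype.dist_eq, dist_eq_norm, dist_eq_norm]
    exact D.V_iso ha u.2 v.2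
  have hFsurj : Function.Surjective F := by
    rintro ⟨_, ⟨u, hu, rfl⟩⟩
    exact ⟨⟨u, hu⟩, rfl⟩
  let e : J ≃ᵢ H := IsometryEquiv.mk (Equiv.ofBijective F ⟨hFiso.injective, hFsurj⟩) hFiso
  have h0 : e 0 = 0 := by
    apply Subtype.ext
    show V f 0 = 0
    exact V_zero
  let L := e.toRealLinearIsometryEquivOfMapZero h0
  have hL : ∀ u : J, ((L u : H) : Y) = V f u := fun u => rfl
  have h3 : L (⟨x, h⟩ + ⟨x', h'⟩) = L ⟨x, h⟩ + L ⟨x', h'⟩ := L.map_add _ _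
  have h2 : ((L (⟨x, h⟩ + ⟨x', h'⟩) : H) : Y) = ((L ⟨x, h⟩ + L ⟨x', h'⟩ : H) : Y) :=
    congrArg Subtype.val h3
  rw [Submodule.coe_add, hL, hL, hL] at h2
  exact h2

end SI

end Vale.Agent.Lib.P084.CK
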