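/-
Tingley's problem for `C(K, E)`, `K` an infinite compact metric space and `E` any nonzero real normed
space: every surjective isometry of the unit sphere of `C(K, E)` onto the unit sphere of a real normed
space `Y` extends to a surjective linear isometry.
-/
import Vale.Agent.Lib.P084.CK.Additive

namespace Vale.Agent.Lib.P084.CK

open Vale.Agent.Lib.P084.UC Vale.Agent.Lib.P084.Inf Vale.Agent.Lib.P084.MSum
open Filter Topology

variable {K : Type*} [MetricSpace K] [CompactSpace K] {E : Type*}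
  [NormedAddCommGroup E] [NormedSpace ℝ E] {Y : Type*} [NormedAddCommGroup Y] [NormedSpace ℝ Y]

/-- The product of a scalar function and a vector function. -/
noncomputable def mulc (c : C(K, ℝ)) (x : C(K, E)) : C(K, E) :=
  ⟨fun s => c s • x s, c.continuous.smul x.continuous⟩

omit [CompactSpace K] in
@[simp] theorem mulc_apply (c : C(K, ℝ)) (x : C(K, E)) (s : K) : mulc c x s = c s • x s := rfl

omit [CompactSpace K] in
theorem mulc_add (c : C(K, ℝ)) (x y : C(K, E)) : mulc c (x + y) = mulc c x + mulc c y := by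
  ext s
  simp [smul_add]

omit [CompactSpace K] in
theorem mulc_smul (c : C(K, ℝ)) (r : ℝ) (x : C(K, E)) : mulc c (r • x) = r • mulc c x := by
  ext s
  simp only [mulc_apply, ContinuousMap.smul_apply]
  rw [smul_comm]

theorem norm_mulc_le {c : C(K, ℝ)} (h0 : ∀ s, 0 ≤ c s) (h1 : ∀ s, c s ≤ 1) (x : C(K, E)) :
    ‖mulc c x‖ ≤ ‖x‖ := by
  rw [ContinuousMap.norm_le _ (norm_nonneg _)]
  intro s
  rw [mulc_apply, norm_smul, Real.norm_eq_abs, abs_of_nonneg (h0 s)]
  have h2 := x.norm_coe_le_norm s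
  have h3 := norm_nonneg (x s)
  have h4 := h0 s
  have h5 := h1 s
  nlinarith

omit [CompactSpace K] in
theorem Sep.mulc {a x : C(K, E)} (h : Sep a x) (c : C(K, ℝ)) : Sep a (mulc c x) := fun t =>
  (h t).imp id fun h' => h'.of_imp fun s hs => by simp [hs]

/-- A cut-off: `1` on the ball of radius `ρ / 2`, `0` off the ball of radius `ρ`. -/
noncomputable def hat (t : K) (ρ : ℝ) : C(K, ℝ) :=
  ⟨fun s => min 1 (2 * bump t ρ s), continuous_const.min (continuous_const.mul (bump t ρ).continuous)⟩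

omit [CompactSpace K] in
theorem hat_apply (t : K) (ρ : ℝ) (s : K) : hat t ρ s = min 1 (2 * bump t ρ s) := rfl

omit [CompactSpace K] in
theorem hat_nonneg (t : K) (ρ : ℝ) (s : K) : 0 ≤ hat t ρ s :=
  le_min zero_le_one (mul_nonneg zero_le_two (bump_nonneg t ρ s))

omit [CompactSpace K] in
theorem hat_le_one (t : K) (ρ : ℝ) (s : K) : hat t ρ s ≤ 1 := min_le_left _ _

omit [CompactSpace K] in
theorem hat_eq_one {ρ : ℝ} (hρ : 0 < ρ) {t s : K} (h : dist s t < ρ / 2) : hat t ρ s = 1 := by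
  rw [hat_apply]
  refine min_eq_left ?_
  have h1 : dist s t / ρ < 1 / 2 := by
    rw [div_lt_iff₀ hρ]
    linarith
  have h2 : 1 - dist s t / ρ ≤ bump t ρ s := le_max_right _ _
  linarith

omit [CompactSpace K] in
theorem dist_lt_of_hat_ne {ρ : ℝ} (hρ : 0 < ρ) {t s : K} (h : hat t ρ s ≠ 0) : dist s t < ρ := by
  by_contra h'
  apply h
  rw [hat_apply, bump_eq_zero hρ (not_lt.mp h')]
  simp

/-- The part of `x` cleared near `t`. -/
noncomputable def cl (t : K) (ρ : ℝ) (x : C(K, E)) : C(K, E) := mulc (1 - hat t ρ) x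

/-- The part of `x` near `t`. -/
noncomputable def lo (t : K) (ρ : ℝ) (x : C(K, E)) : C(K, E) := mulc (hat t ρ) x

omit [CompactSpace K] in
theorem cl_add_lo (t : K) (ρ : ℝ) (x : C(K, E)) : cl t ρ x + lo t ρ x = x := by
  ext s
  simp only [cl, lo, ContinuousMap.add_apply, mulc_apply, ContinuousMap.sub_apply,
    ContinuousMap.one_apply]
  rw [← add_smul]
  simp

theorem norm_cl_le (t : K) (ρ : ℝ) (x : C(K, E)) : ‖cl t ρ x‖ ≤ ‖x‖ :=
  norm_mulc_le (fun s => by
    simpa using hat_le_one t ρ s) (fun s => by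
    simpa using hat_nonneg t ρ s) x

theorem norm_lo_le (t : K) (ρ : ℝ) (x : C(K, E)) : ‖lo t ρ x‖ ≤ ‖x‖ :=
  norm_mulc_le (hat_nonneg t ρ) (hat_le_one t ρ) x

/-- A unit vector supported near `t`. -/
noncomputable def spike (t : K) (ρ : ℝ) (e : E) : C(K, E) :=
  mulc (bump t ρ) (ContinuousMap.const K e)

omit [CompactSpace K] in
theorem spike_apply (t : K) (ρ : ℝ) (e : E) (s : K) : spike t ρ e s = bump t ρ s • e := rfl

omit [CompactSpace K] in
theorem spike_self (t : K) (ρ : ℝ) (e : E) : spike t ρ e t = e := by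
  simp [spike_apply, bump_self]

theorem norm_spike {ρ : ℝ} (hρ : 0 < ρ) (t : K) {e : E} (he : ‖e‖ = 1) : ‖spike t ρ e‖ = 1 := by
  apply le_antisymm
  · rw [ContinuousMap.norm_le _ zero_le_one]
    intro s
    rw [spike_apply, norm_smul, he, mul_one, Real.norm_eq_abs, abs_of_nonneg (bump_nonneg t ρ s)]
    exact bump_le_one hρ t s
  · have := (spike t ρ e).norm_coe_le_norm t
    rwa [spike_self, he] at this

omit [CompactSpace K] in
theorem dist_lt_of_spike_ne {ρ : ℝ} (hρ : 0 < ρ) {t s : K} {e : E} (h : spike t ρ e s ≠ 0) :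
    dist s t < ρ := by
  refine dist_lt_of_bump_ne hρ fun h0 => h ?_
  rw [spike_apply, h0, zero_smul]

omit [CompactSpace K] in
/-- Supports in a ball and off a larger ball are separated. -/
theorem sep_of_ball {x y : C(K, E)} {t : K} {r r' : ℝ} (hr : r < r') (hx : ∀ s, x s ≠ 0 → dist s t < r)
    (hy : ∀ s, dist s t < r' → y s = 0) : Sep x y := by
  intro u
  by_cases hu : dist u t < r'
  · right
    have : Metric.ball t r' ∈ 𝓝 u := Metric.isOpen_ball.mem_nhds (Metric.mem_ball.2 hu)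
    filter_upwards [this] with s hs using hy s (Metric.mem_ball.1 hs)
  · left
    have h1 : r < dist u t := lt_of_lt_of_le hr (not_lt.mp hu)
    have h2 : IsOpen {s : K | r < dist s t} := isOpen_lt continuous_const (by fun_prop)
    filter_upwards [h2.mem_nhds h1] with s hs
    by_contra h3
    exact absurd (hx s h3) (not_lt.mpr (le_of_lt hs))

omit [CompactSpace K] in
theorem sep_spike_cl {ρ : ℝ} (hρ : 0 < ρ) (t : K) (e : E) (x : C(K, E)) :
    Sep (spike t (ρ / 4) e) (cl t ρ x) := by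
  refine sep_of_ball (r := ρ / 4) (r' := ρ / 2) (t := t) (by linarith)
    (fun s hs => dist_lt_of_spike_ne (by positivity) hs) (fun s hs => ?_)
  simp [cl, hat_eq_one hρ hs]

namespace SI

variable {f : C(K, E) → Y} {g : Y → C(K, E)}

/-- Steps D: the linear map. -/
theorem exists_T [Nonempty K] [Nontrivial K] (D : SI f g) {e : E} (he : ‖e‖ = 1) :
    ∃ T : C(K, E) →ₗ[ℝ] Y, (∀ x, ‖T x‖ ≤ 2 * ‖x‖) ∧
      ∀ a x : C(K, E), ‖a‖ = 1 → Sep a x → T x = V f x := by
  obtain ⟨p, q, hpq⟩ := exists_pair_ne K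
  set ρ : ℝ := dist p q / 3 with hρdef
  have hρ : 0 < ρ := by
    have := dist_pos.mpr hpq
    positivity
  have ha₁ : ‖spike p (ρ / 4) e‖ = 1 := norm_spike (by positivity) p he
  have ha₂ : ‖spike q ρ e‖ = 1 := norm_spike hρ q he
  have h₁ : ∀ x : C(K, E), Sep (spike p (ρ / 4) e) (cl p ρ x) := sep_spike_cl hρ p e
  have h₂ : ∀ x : C(K, E), Sep (spike q ρ e) (lo p ρ x) := by
    intro x
    refine sep_of_ball (r := ρ) (r' := 2 * ρ) (t := q) (by linarith)
      (fun s hs => dist_lt_of_spike_ne hρ hs) (fun s hs => ?_)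
    have h3 : hat p ρ s = 0 := by
      by_contra h4
      have h5 := dist_lt_of_hat_ne hρ h4
      have h6 := dist_triangle_left p q s
      rw [dist_comm s q] at hs
      rw [dist_comm s p] at h5
      have h7 : dist p q = 3 * ρ := by rw [hρdef]; ring
      rw [dist_comm s q] at h6
      rw [dist_comm s p] at h6
      linarith
    simp [lo, h3]
  let T : C(K, E) →ₗ[ℝ] Y :=
    { toFun := fun x => V f (cl p ρ x) + V f (lo p ρ x)
      map_add' := fun x y => by
        have e1 : cl p ρ (x + y) = cl p ρ x + cl p ρ y := mulc_add _ _ _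
        have e2 : lo p ρ (x + y) = lo p ρ x + lo p ρ y := mulc_add _ _ _
        rw [e1, e2, D.V_add ha₁ (h₁ x) (h₁ y), D.V_add ha₂ (h₂ x) (h₂ y)]
        abel
      map_smul' := fun c x => by
        have e1 : cl p ρ (c • x) = c • cl p ρ x := mulc_smul _ _ _
        have e2 : lo p ρ (c • x) = c • lo p ρ x := mulc_smul _ _ _
        simp only [RingHom.id_apply]
        rw [e1, e2, D.V_smul, D.V_smul, smul_add] }
  have hTa : ∀ x, T x = V f (cl p ρ x) + V f (lo p ρ x) := fun x => rfl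
  refine ⟨T, fun x => ?_, fun a x ha hs => ?_⟩
  · rw [hTa]
    refine (norm_add_le _ _).trans ?_
    rw [D.norm_V, D.norm_V]
    have h3 := norm_cl_le p ρ x
    have h4 := norm_lo_le p ρ x
    linarith
  · have e1 : Sep a (cl p ρ x) := hs.mulc _
    have e2 : Sep a (lo p ρ x) := hs.mulc _
    rw [hTa, ← D.V_add ha e1 e2, cl_add_lo]

/-- Step E, with `n` disjoint balls. -/
theorem contraction_aux [Nonempty K] (D : SI f g) {e : E} (he : ‖e‖ = 1) (T : C(K, E) →ₗ[ℝ] Y)
    (h2 : ∀ x, ‖T x‖ ≤ 2 * ‖x‖) (hT : ∀ a x : C(K, E), ‖a‖ = 1 → Sep a x → T x = V f x)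
    (h : C(K, E)) (s : Finset K) (hs : s.Nonempty) :
    ‖T h‖ ≤ ‖h‖ + 2 * ‖h‖ / s.card := by
  classical
  obtain ⟨U, hU, hdisj⟩ := (s.finite_toSet).t2_separation
  have hex : ∀ t, ∃ ρ > 0, Metric.ball t ρ ⊆ U t := fun t =>
    Metric.isOpen_iff.mp (hU t).2 t (hU t).1
  choose ρ hρ hball using hex
  obtain ⟨ψ, hψ1, hψ2⟩ := exists_dual_vector'' ℝ (T h)
  have hψ : ∀ y, |ψ y| ≤ ‖y‖ := fun y => by
    have h3 := ψ.le_opNorm y
    rw [Real.norm_eq_abs] at h3
    have h4 := norm_nonneg y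
    nlinarith
  set k : K → C(K, E) := fun t => lo t (ρ t) h with hk
  set c : K → C(K, E) := fun t => cl t (ρ t) h with hc
  have hsum : ∀ t, c t + k t = h := fun t => cl_add_lo _ _ _
  set ε : K → ℝ := fun t => if 0 ≤ ψ (T (k t)) then 1 else -1 with hε
  set x : C(K, E) := ∑ t ∈ s, ε t • k t with hxdef
  have hεn : ∀ t, |ε t| = 1 := fun t => by
    simp only [hε]
    split_ifs <;> simp
  have hx : ‖x‖ ≤ ‖h‖ := by
    rw [ContinuousMap.norm_le _ (norm_nonneg _)]
    intro u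
    have hval : x u = ∑ t ∈ s, ε t • k t u := by
      simp [hxdef, ContinuousMap.sum_apply]
    by_cases hex : ∃ t ∈ s, hat t (ρ t) u ≠ 0
    · obtain ⟨t, hts, ht⟩ := hex
      rw [hval, Finset.sum_eq_single_of_mem t hts]
      · rw [norm_smul, Real.norm_eq_abs, hεn, one_mul]
        simp only [hk, lo, mulc_apply]
        rw [norm_smul, Real.norm_eq_abs, abs_of_nonneg (hat_nonneg _ _ _)]
        have h3 := h.norm_coe_le_norm u
        have h4 := norm_nonneg (h u)
        have h5 := hat_le_one t (ρ t) u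
        have h6 := hat_nonneg t (ρ t) u
        nlinarith
      · intro t' ht's hne
        have h0 : hat t' (ρ t') u = 0 := by
          by_contra h3
          have h4 : u ∈ U t' := hball t' (Metric.mem_ball.2 (dist_lt_of_hat_ne (hρ t') h3))
          have h5 : u ∈ U t := hball t (Metric.mem_ball.2 (dist_lt_of_hat_ne (hρ t) ht))
          exact Set.disjoint_left.1 (hdisj (Finset.mem_coe.2 ht's) (Finset.mem_coe.2 hts) hne) h4 h5
        simp [hk, lo, h0]
    · push Not at hex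
      rw [hval, Finset.sum_eq_zero]
      · simp
      · intro t ht
        simp [hk, lo, hex t ht]
  have hω : ∑ t ∈ s, |ψ (T (k t))| ≤ 2 * ‖h‖ := by
    have e1 : ψ (T x) = ∑ t ∈ s, |ψ (T (k t))| := by
      simp only [hxdef, map_sum, map_smul, smul_eq_mul]
      refine Finset.sum_congr rfl fun t _ => ?_
      simp only [hε]
      split_ifs with h3
      · rw [one_mul, abs_of_nonneg h3]
      · rw [abs_of_neg (not_le.mp h3)]
        ring
    rw [← e1]
    calc ψ (T x) ≤ |ψ (T x)| := le_abs_self _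
      _ ≤ ‖T x‖ := hψ _
      _ ≤ 2 * ‖x‖ := h2 x
      _ ≤ 2 * ‖h‖ := by linarith
  have hcard : (0 : ℝ) < s.card := by exact_mod_cast hs.card_pos
  obtain ⟨t, hts, htle⟩ : ∃ t ∈ s, |ψ (T (k t))| ≤ 2 * ‖h‖ / s.card := by
    by_contra hcon
    push Not at hcon
    have h3 := Finset.sum_lt_sum_of_nonempty hs hcon
    rw [Finset.sum_const, nsmul_eq_mul, mul_div_cancel₀ _ hcard.ne'] at h3
    linarith
  have hcb : |ψ (T (c t))| ≤ ‖h‖ := by
    rw [hT (spike t (ρ t / 4) e) (c t) (norm_spike (by have := hρ t; positivity) t he)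
      (sep_spike_cl (hρ t) t e h)]
    refine (hψ _).trans ?_
    rw [D.norm_V]
    exact norm_cl_le _ _ _
  have e1 : ‖T h‖ = ψ (T h) := by simpa using hψ2.symm
  have e2 : ψ (T h) = ψ (T (c t)) + ψ (T (k t)) := by
    rw [← map_add, ← map_add, hsum]
  rw [e1, e2]
  linarith [le_abs_self (ψ (T (c t))), le_abs_self (ψ (T (k t)))]

/-- Step E. -/
theorem contraction [Infinite K] (D : SI f g) {e : E} (he : ‖e‖ = 1) (T : C(K, E) →ₗ[ℝ] Y)
    (h2 : ∀ x, ‖T x‖ ≤ 2 * ‖x‖) (hT : ∀ a x : C(K, E), ‖a‖ = 1 → Sep a x → T x = V f x)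
    (h : C(K, E)) : ‖T h‖ ≤ ‖h‖ := by
  refine le_of_forall_pos_le_add fun ε hε => ?_
  obtain ⟨n, hn⟩ := exists_nat_gt (2 * ‖h‖ / ε)
  obtain ⟨s, hs⟩ := Infinite.exists_subset_card_eq K (n + 1)
  have hne : s.Nonempty := by
    rw [← Finset.card_pos, hs]
    exact Nat.succ_pos n
  have h3 := D.contraction_aux he T h2 hT h s hne
  have h4 : 2 * ‖h‖ / (s.card : ℝ) ≤ ε := by
    rw [hs]
    push_cast
    have h5 : (0 : ℝ) < (n : ℝ) + 1 := by positivity
    rw [div_le_iff₀ h5]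
    have h6 : 2 * ‖h‖ < n * ε := (div_lt_iff₀ hε).1 hn
    nlinarith
  linarith

/-- Steps F, G. -/
theorem T_facts [Nonempty K] [Nontrivial K] (D : SI f g) (T : C(K, E) →ₗ[ℝ] Y)
    (hc : ∀ x, ‖T x‖ ≤ ‖x‖) (hT : ∀ a x : C(K, E), ‖a‖ = 1 → Sep a x → T x = V f x)
    {h : C(K, E)} (hh : ‖h‖ = 1) {δ : ℝ} (hδ : 0 < δ) :
    2 - δ ≤ ‖f h + T h‖ ∧ 1 - δ ≤ ‖T h‖ := by
  obtain ⟨t₁, ht₁⟩ := exists_unit_peak hh
  obtain ⟨t₂, ht₂⟩ := exists_ne t₁
  obtain ⟨ρ₁, hρ₁, hosc⟩ := Metric.continuous_iff.mp h.continuous t₁ δ hδ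
  set ρ : ℝ := min ρ₁ (dist t₁ t₂ / 3) with hρdef
  have hd : 0 < dist t₁ t₂ := dist_pos.mpr ht₂.symm
  have hρ : 0 < ρ := by positivity
  have hρ1 : ρ ≤ ρ₁ := min_le_left _ _
  have hρ2 : 3 * ρ ≤ dist t₁ t₂ := by
    have : ρ ≤ dist t₁ t₂ / 3 := min_le_right _ _
    linarith
  set e₁ : E := h t₁ with he₁
  set u : C(K, ℝ) := bump t₁ ρ with hu
  have hu0 : ∀ s, 0 ≤ u s := bump_nonneg t₁ ρ
  have hu1 : ∀ s, u s ≤ 1 := bump_le_one hρ t₁
  set b : C(K, E) := spike t₁ ρ e₁ with hb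
  have hb1 : ‖b‖ = 1 := norm_spike hρ t₁ ht₁
  have hsep : Sep (spike t₂ ρ e₁) b := by
    refine sep_of_ball (r := ρ) (r' := 2 * ρ) (t := t₂) (by linarith)
      (fun s hs => dist_lt_of_spike_ne hρ hs) (fun s hs => ?_)
    have h3 : bump t₁ ρ s = 0 := by
      refine bump_eq_zero hρ ?_
      have h4 := dist_triangle t₁ s t₂
      rw [dist_comm t₁ s] at h4
      linarith
    simp [hb, spike_apply, h3]
  have hTb : T b = f b := by
    rw [hT _ _ (norm_spike hρ t₂ ht₁) hsep, V_unit hb1]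
  have hhb : ‖h + b‖ = 2 := by
    apply le_antisymm
    · have := norm_add_le h b
      linarith
    · have h3 := (h + b).norm_coe_le_norm t₁
      have h4 : (h + b) t₁ = (2 : ℝ) • e₁ := by
        simp only [ContinuousMap.add_apply]
        rw [hb, spike_self, two_smul]
      rw [h4, norm_smul, ht₁] at h3
      simpa using h3
  have hfhb : ‖f h + f b‖ = 2 := by rw [D.norm_add hh hb1, hhb]
  have hne : ‖f h + f b‖ ≠ 0 := by rw [hfhb]; norm_num
  obtain ⟨ψ, hψ1, hψ2⟩ := exists_dual_vector ℝ (f h + f b) hne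
  have hψ : ∀ y, |ψ y| ≤ ‖y‖ := fun y => by
    have h3 := ψ.le_opNorm y
    rwa [Real.norm_eq_abs, hψ1, one_mul] at h3
  have hψ2' : ψ (f h) + ψ (f b) = 2 := by
    have := hψ2
    rw [map_add, hfhb] at this
    simpa using this
  have hfh : ψ (f h) ≤ 1 := by
    have := (le_abs_self _).trans (hψ (f h))
    rwa [D.hf.norm_eq _ hh] at this
  have hfb : ψ (f b) ≤ 1 := by
    have := (le_abs_self _).trans (hψ (f b))
    rwa [D.hf.norm_eq _ hb1] at this
  have hfh1 : ψ (f h) = 1 := by linarith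
  have hfb1 : ψ (f b) = 1 := by linarith
  set r : C(K, E) := mulc (1 - u) h with hr
  have hrpt : ∀ s, r s = (1 - u s) • h s := fun s => by simp [hr]
  have hbpt : ∀ s, b s = u s • e₁ := fun s => rfl
  have hbd : ∀ ε : ℝ, |ε| = 1 → ‖b + ε • r‖ ≤ 1 := by
    intro ε hε
    rw [ContinuousMap.norm_le _ zero_le_one]
    intro s
    simp only [ContinuousMap.add_apply, ContinuousMap.smul_apply]
    rw [hrpt, hbpt]
    have h3 : ‖h s‖ ≤ 1 := hh ▸ h.norm_coe_le_norm s
    calc _ ≤ ‖u s • e₁‖ + ‖ε • (1 - u s) • h s‖ := norm_add_le _ _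
      _ = u s + (1 - u s) * ‖h s‖ := by
        rw [norm_smul, norm_smul, norm_smul, ht₁, Real.norm_eq_abs, Real.norm_eq_abs,
          Real.norm_eq_abs, abs_of_nonneg (hu0 s), abs_of_nonneg (show 0 ≤ 1 - u s by linarith [hu1 s]), hε]
        ring
      _ ≤ 1 := by
        have := hu1 s
        nlinarith
  have hTbψ : ψ (T b) = 1 := by rw [hTb, hfb1]
  have hr1 : ψ (T r) ≤ 0 := by
    have h3 := (le_abs_self _).trans ((hψ _).trans (hc _)) |>.trans (hbd 1 (by simp))
    simp only [one_smul, map_add] at h3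
    linarith
  have hr2 : 0 ≤ ψ (T r) := by
    have h3 := (le_abs_self _).trans ((hψ _).trans (hc _)) |>.trans (hbd (-1) (by simp))
    simp only [neg_smul, one_smul, map_add, map_neg] at h3
    linarith
  set d : C(K, E) := h - b - r with hd'
  have hdn : ‖d‖ ≤ δ := by
    rw [ContinuousMap.norm_le _ hδ.le]
    intro s
    have e2 : d s = u s • (h s - e₁) := by
      simp only [hd', ContinuousMap.sub_apply]
      rw [hrpt, hbpt]
      module
    rw [e2, norm_smul, Real.norm_eq_abs, abs_of_nonneg (hu0 s)]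
    by_cases h0 : u s = 0
    · rw [h0, zero_mul]
      exact hδ.le
    · have h3 : dist s t₁ < ρ := dist_lt_of_bump_ne hρ h0
      have h4 := hosc s (by linarith)
      rw [dist_eq_norm] at h4
      have h5 := hu1 s
      have h6 := hu0 s
      have h7 := norm_nonneg (h s - e₁)
      have h8 : ‖h s - e₁‖ < δ := h4
      nlinarith
  have hsplit : h = b + r + d := by
    rw [hd']
    abel
  have hTh : 1 - δ ≤ ψ (T h) := by
    have h3 : ψ (T h) = ψ (T b) + ψ (T r) + ψ (T d) := by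
      conv_lhs => rw [hsplit]
      simp only [map_add]
    have h4 : -δ ≤ ψ (T d) := by
      have h5 := (neg_abs_le (ψ (T d)))
      have h6 := (hψ (T d)).trans ((hc d).trans hdn)
      linarith
    rw [h3, hTbψ]
    linarith
  constructor
  · have h3 := (le_abs_self _).trans (hψ (f h + T h))
    rw [map_add, hfh1] at h3
    linarith
  · have h3 := (le_abs_self _).trans (hψ (T h))
    linarith

/-- Step H: `T` extends `f`. -/
theorem T_eq_f [Nonempty K] [Nontrivial K] (D : SI f g) (T : C(K, E) →ₗ[ℝ] Y)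
    (hc : ∀ x, ‖T x‖ ≤ ‖x‖) (hT : ∀ a x : C(K, E), ‖a‖ = 1 → Sep a x → T x = V f x)
    {h : C(K, E)} (hh : ‖h‖ = 1) : ‖T h‖ = 1 ∧ T h = f h := by
  have hlim : ∀ x : C(K, E), ‖x‖ = 1 → ‖T x‖ = 1 ∧ ‖f x + T x‖ = 2 := by
    intro x hx
    constructor
    · apply le_antisymm (by simpa [hx] using hc x)
      refine le_of_forall_pos_le_add fun δ hδ => ?_
      have := (D.T_facts T hc hT hx hδ).2
      linarith
    · apply le_antisymm
      · have h3 := norm_add_le (f x) (T x)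
        have h4 := hc x
        rw [D.hf.norm_eq _ hx] at h3
        rw [hx] at h4
        linarith
      · refine le_of_forall_pos_le_add fun δ hδ => ?_
        have := (D.T_facts T hc hT hx hδ).1
        linarith
  refine ⟨(hlim h hh).1, ?_⟩
  have hA : g (T h) = h := by
    refine eq_self_of_cofacial (Ξ := fun x => g (T x))
      (fun x hx => D.hg.norm_eq _ (hlim x hx).1) (fun x y hx hy => ?_) (fun x hx => ?_) hh
    · rw [D.hg.iso _ _ (hlim x hx).1 (hlim y hy).1, ← map_sub]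
      exact hc _
    · have h3 := (hlim x hx).1
      rw [← D.norm_add hx (D.hg.norm_eq _ h3), D.fg _ h3]
      exact (hlim x hx).2
  have h3 := D.fg _ (hlim h hh).1
  rw [hA] at h3
  exact h3.symm

end SI

/-- **Main theorem.** Every surjective sphere isometry of `C(K, E)`, `K` an infinite compact metric
space, `E` a nonzero real normed space, is the restriction of a surjective linear isometry. -/
theorem exists_linear [Infinite K] [Nontrivial E] {f : C(K, E) → Y} (hf : IsSphereIso f) :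
    ∃ T : C(K, E) ≃ₗᵢ[ℝ] Y, ∀ x, ‖x‖ = 1 → T x = f x := by
  obtain ⟨g, hg⟩ := hf.exists_inv
  have hgf : ∀ x : C(K, E), ‖x‖ = 1 → g (f x) = x := by
    intro x hx
    obtain ⟨h1, h2⟩ := hg (f x) (hf.norm_eq x hx)
    have h3 := hf.iso _ _ h1 hx
    rw [h2, sub_self, norm_zero] at h3
    exact sub_eq_zero.1 (norm_eq_zero.1 h3.symm)
  have D : SI f g := ⟨hf, ⟨fun y hy => (hg y hy).1, fun y y' hy hy' => by
    rw [← hf.iso _ _ (hg y hy).1 (hg y' hy').1, (hg y hy).2, (hg y' hy').2], fun x hx =>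
    ⟨f x, hf.norm_eq x hx, hgf x hx⟩⟩, hgf, fun y hy => (hg y hy).2⟩
  obtain ⟨e, he⟩ := MSum.exists_unit E
  obtain ⟨T, h2, hT⟩ := D.exists_T he
  have hc := D.contraction he T h2 hT
  have hext : ∀ h : C(K, E), ‖h‖ = 1 → ‖T h‖ = 1 ∧ T h = f h := fun h hh =>
    D.T_eq_f T hc hT hh
  have hnorm : ∀ x, ‖T x‖ = ‖x‖ := by
    intro x
    by_cases h0 : x = 0
    · simp [h0]
    have hw : ‖‖x‖⁻¹ • x‖ = 1 := norm_inv_smul h0
    have h3 := (hext _ hw).1
    rw [map_smul, norm_smul, norm_inv, norm_norm] at h3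
    have h4 : ‖x‖ ≠ 0 := norm_ne_zero_iff.mpr h0
    field_simp at h3
    exact h3
  let Li : C(K, E) →ₗᵢ[ℝ] Y := ⟨T, hnorm⟩
  have hsurj : Function.Surjective Li := by
    intro y
    by_cases h0 : y = 0
    · exact ⟨0, by simp [h0]⟩
    have hw : ‖‖y‖⁻¹ • y‖ = 1 := norm_inv_smul h0
    obtain ⟨x, hx, hfx⟩ := hf.surj _ hw
    refine ⟨‖y‖ • x, ?_⟩
    show T (‖y‖ • x) = y
    rw [map_smul, (hext x hx).2, hfx, smul_smul, mul_inv_cancel₀ (norm_ne_zero_iff.mpr h0), one_smul]
  exact ⟨LinearIsometryEquiv.ofSurjective Li hsurj, fun x hx => (hext x hx).2⟩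

end Vale.Agent.Lib.P084.CK
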