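/-
Tingley's problem for spaces linearly isometric to `C(K, E)`, on either side.
-/
import Vale.Agent.Lib.P084.CK.Final
import Vale.Agent.Lib.P084.LSum.Top

namespace Vale.Agent.Lib.P084.CK

open Vale.Agent.Lib.P084.UC
open Metric

universe u v

/-- `X` is linearly isometric to the space of continuous functions on an infinite compact metric
space `K` with values in a nonzero real normed space `E`, with the sup norm. -/
def IsVectorCK (X : Type u) [NormedAddCommGroup X] [NormedSpace ℝ X] : Prop :=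
  ∃ (K : Type u) (E : Type u) (_ : MetricSpace K) (_ : CompactSpace K) (_ : Infinite K)
    (_ : NormedAddCommGroup E) (_ : NormedSpace ℝ E) (_ : Nontrivial E),
    Nonempty (X ≃ₗᵢ[ℝ] C(K, E))

variable {X : Type u} {Y : Type v} [NormedAddCommGroup X] [NormedSpace ℝ X] [NormedAddCommGroup Y]
  [NormedSpace ℝ Y]

/-- Extension if the source is a `C(K, E)`. -/
theorem extends_of_isVectorCK (hX : IsVectorCK X) {f : X → Y} (hf : IsSphereIso f) :
    ∃ T : X ≃ₗᵢ[ℝ] Y, ∀ x, ‖x‖ = 1 → T x = f x := by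
  obtain ⟨K, E, _, _, _, _, _, _, ⟨e⟩⟩ := hX
  have hF : IsSphereIso (fun p : C(K, E) => f (e.symm p)) := by
    refine ⟨fun p hp => hf.norm_eq _ (by rw [e.symm.norm_map]; exact hp), fun p q hp hq => ?_,
      fun z hz => ?_⟩
    · rw [hf.iso _ _ (by rw [e.symm.norm_map]; exact hp) (by rw [e.symm.norm_map]; exact hq),
        ← map_sub, e.symm.norm_map]
    · obtain ⟨x, hx, hfx⟩ := hf.surj z hz
      refine ⟨e x, by rw [e.norm_map]; exact hx, ?_⟩
      simp [hfx]
  obtain ⟨T, hT⟩ := exists_linear hF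
  refine ⟨e.trans T, fun x hx => ?_⟩
  have h1 := hT (e x) (by rw [e.norm_map]; exact hx)
  simpa using h1

/-- Map of the unit spheres, source version. -/
theorem extends_sphere_source (f : sphere (0 : X) 1 → sphere (0 : Y) 1) (hf : Isometry f)
    (hs : Function.Surjective f) (hX : IsVectorCK X) :
    ∃ T : X ≃ₗᵢ[ℝ] Y, ∀ x : sphere (0 : X) 1, T x = f x := by
  obtain ⟨g, hg, hgf⟩ := LSum.exists_ambient f hf hs
  obtain ⟨T, hT⟩ := extends_of_isVectorCK hX hg
  exact ⟨T, fun x => by rw [hT x (by simpa using x.2), hgf]⟩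

/-- Map of the unit spheres, target version. -/
theorem extends_sphere_target (f : sphere (0 : X) 1 → sphere (0 : Y) 1) (hf : Isometry f)
    (hs : Function.Surjective f) (hY : IsVectorCK Y) :
    ∃ T : X ≃ₗᵢ[ℝ] Y, ∀ x : sphere (0 : X) 1, T x = f x := by
  obtain ⟨h, hh, hhs, htr⟩ := LSum.exists_inverse f hf hs
  exact htr (extends_sphere_source h hh hhs hY)

end Vale.Agent.Lib.P084.CK
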